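import Mathlib

/-!
# P076: partial sums of `l ^ (-α)`
-/

namespace Vale.Agent.P076.R2.H922

theorem sum_rpow {α : ℝ} (h0 : 0 < α) (h1 : α < 1) (m : ℕ) :
    ∑ l ∈ Finset.range m, ((l : ℝ) + 1) ^ (-α) ≤ (m : ℝ) ^ (1 - α) / (1 - α) := by
  have ha : 0 < 1 - α := by linarith
  induction m with
  | zero =>
    simp only [Finset.range_zero, Finset.sum_empty, Nat.cast_zero]
    positivity
  | succ m ih =>
    rw [Finset.sum_range_succ]
    have hm : (0 : ℝ) ≤ m := Nat.cast_nonneg m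
    have hm1 : (0 : ℝ) < m + 1 := by linarith
    have hb : (1 + -1 / ((m : ℝ) + 1)) ^ (1 - α) ≤ 1 + (1 - α) * (-1 / ((m : ℝ) + 1)) := by
      refine rpow_one_add_le_one_add_mul_self ?_ ha.le (by linarith)
      rw [le_div_iff₀ hm1]
      linarith
    have he : (m : ℝ) = (m + 1) * (1 + -1 / ((m : ℝ) + 1)) := by
      field_simp
      ring
    have hnn : 0 ≤ 1 + -1 / ((m : ℝ) + 1) := by
      have : 1 + -1 / ((m : ℝ) + 1) = m / (m + 1) := by
        field_simp
        ring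
      rw [this]
      positivity
    have h2 : (m : ℝ) ^ (1 - α) ≤ ((m : ℝ) + 1) ^ (1 - α) -
        (1 - α) * ((m : ℝ) + 1) ^ (-α) := by
      have h3 : (m : ℝ) ^ (1 - α) = ((m : ℝ) + 1) ^ (1 - α) *
          (1 + -1 / ((m : ℝ) + 1)) ^ (1 - α) := by
        rw [← Real.mul_rpow hm1.le hnn, ← he]
      have h4 : ((m : ℝ) + 1) ^ (1 - α) = ((m : ℝ) + 1) * ((m : ℝ) + 1) ^ (-α) := by
        rw [sub_eq_add_neg, Real.rpow_add hm1, Real.rpow_one]
      rw [h3]
      refine (mul_le_mul_of_nonneg_left hb (Real.rpow_nonneg hm1.le _)).trans (le_of_eq ?_)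
      rw [h4]
      field_simp
      ring
    push_cast
    have h5 : ((m : ℝ) + 1) ^ (-α) ≤
        (((m : ℝ) + 1) ^ (1 - α) - (m : ℝ) ^ (1 - α)) / (1 - α) := by
      rw [le_div_iff₀ ha]
      linarith
    have h6 : ((m : ℝ) + 1) ^ (1 - α) / (1 - α) = (m : ℝ) ^ (1 - α) / (1 - α) +
        (((m : ℝ) + 1) ^ (1 - α) - (m : ℝ) ^ (1 - α)) / (1 - α) := by
      rw [← add_div]
      congr 1
      ring
    rw [h6]
    exact add_le_add ih h5

end Vale.Agent.P076.R2.H922
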